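import Vale.Agent.P125.Z96.Defs58

set_option linter.unusedSectionVars false
set_option linter.unusedVariables false

/-! # P125 Poly: BLK (Step 3, block decomposition) -/

namespace Vale.Agent.P125.Z96

open scoped BigOperators
open Vale.Agent.P125.Dich

section aux13

variable {S : Type} [Fintype S] [DecidableEq S]

lemma op_pow_13 (P : Matrix S S ℝ) (τ j : ℕ) (g : S → ℝ) : op (P ^ τ) j g = op P (τ * j) g := by
  unfold op
  rw [← pow_mul]

lemma av_add_13 (μ g h : S → ℝ) : av μ (fun x => g x + h x) = av μ g + av μ h := by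
  unfold av
  rw [← Finset.sum_add_distrib]
  exact Finset.sum_congr rfl fun x _ => by ring

lemma av_sum_13 {ι : Type} (s : Finset ι) (μ : S → ℝ) (g : ι → S → ℝ) :
    av μ (fun x => ∑ i ∈ s, g i x) = ∑ i ∈ s, av μ (g i) := by
  unfold av
  rw [Finset.sum_comm]
  exact Finset.sum_congr rfl fun x _ => by rw [Finset.mul_sum]

lemma av_smul_13 (μ : S → ℝ) (c : ℝ) (g : S → ℝ) : av μ (fun x => c * g x) = c * av μ g := by
  unfold av
  rw [Finset.mul_sum]
  exact Finset.sum_congr rfl fun x _ => by ring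

end aux13

theorem stBlk_13 (hlib : StLib) (hs : StSmall) (h2 : StTriv2) (h3 : StSqrt) : StBlk := by
  intro S _ _ μ P hc hL n f τ J
  obtain ⟨hom0, homsum, hlb0, hl20, hl2U, hlbU, hU0, hFell, hwsym, hellsym⟩ := hs S μ P hc hL n f
  have hcR : IsChain μ (P ^ τ) := isChain_pow hc τ
  have hLR : Lib μ (P ^ τ) := hlib S μ (P ^ τ) hcR
  have hop0 : ∀ (k : ℕ) (g : S → ℝ), (∀ y, 0 ≤ g y) → ∀ x, 0 ≤ op P k g x := by
    intro k g hg x
    exact Finset.sum_nonneg fun y _ => mul_nonneg (hL.pw_nonneg k x y) (hg y)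
  -- the uniform variance bound
  let Vs : S → ℝ := fun z => (τ : ℝ) * ∑ i ∈ Finset.range τ, op P i (l2 P f) z
  let Wf : S → ℝ := fun b => ∑ j ∈ Finset.range J, op P (τ * j) Vs b
  have hVs0 : ∀ z, 0 ≤ Vs z := fun z =>
    mul_nonneg (Nat.cast_nonneg τ) (Finset.sum_nonneg fun i _ => hop0 i _ hl20 z)
  have hWf0 : ∀ b, 0 ≤ Wf b := fun b => Finset.sum_nonneg fun j _ => hop0 _ _ hVs0 b
  -- pointwise bound
  have hpt : ∀ k b, Ak P f (τ * J) k b ≤ Real.sqrt (Wf b) +
      ∑ j ∈ Finset.range J, op P (τ * j) (fun z => |hh P f τ k z|) b := by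
    intro k b
    have key := h3 S μ (P ^ τ) hcR hLR (F f k) J 0 b
    have e1 : ∑ y, ((P ^ τ) ^ J) b y * |0 + F f k y - F f k b| = Ak P f (τ * J) k b := by
      unfold Ak
      rw [← pow_mul]
      refine Finset.sum_congr rfl fun y _ => ?_
      rw [zero_add]
    rw [e1] at key
    refine key.trans (add_le_add ?_ (le_of_eq ?_))
    · apply Real.sqrt_le_sqrt
      have h0 : (0 : ℝ) ^ 2 = 0 := by norm_num
      rw [h0, zero_add]
      refine Finset.sum_le_sum fun j _ => ?_
      rw [op_pow_13]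
      exact hL.op_mono (τ * j) _ _ (fun z => h2 S μ P hc hL n f k τ z) b
    · refine Finset.sum_congr rfl fun j _ => ?_
      rw [op_pow_13]
      have e2 : (fun z => |∑ y, (P ^ τ) z y * (F f k y - F f k z)|)
          = fun z => |hh P f τ k z| := by
        funext z
        congr 1
        unfold hh op
        simp only [mul_sub]
        rw [Finset.sum_sub_distrib, ← Finset.sum_mul, hL.pw_sum τ z, one_mul]
      rw [e2]
  have hQ : Qsum μ P f (τ * J) ≤ ∑ k, av μ (fun b => om P f k b * (Real.sqrt (Wf b) +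
      ∑ j ∈ Finset.range J, op P (τ * j) (fun z => |hh P f τ k z|) b)) := by
    unfold Qsum Qk
    refine Finset.sum_le_sum fun k _ => ?_
    apply hL.av_mono
    intro b
    exact mul_le_mul_of_nonneg_left (hpt k b) (hom0 k b)
  have hsplit : ∑ k, av μ (fun b => om P f k b * (Real.sqrt (Wf b) +
      ∑ j ∈ Finset.range J, op P (τ * j) (fun z => |hh P f τ k z|) b))
      = av μ (fun b => lbar P f b * Real.sqrt (Wf b))
        + ∑ j ∈ Finset.range J, Rr μ P f τ (τ * j) := by
    have e : ∀ k, av μ (fun b => om P f k b * (Real.sqrt (Wf b) +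
        ∑ j ∈ Finset.range J, op P (τ * j) (fun z => |hh P f τ k z|) b))
        = av μ (fun b => om P f k b * Real.sqrt (Wf b)) + ∑ j ∈ Finset.range J,
          av μ (fun b => om P f k b * op P (τ * j) (fun z => |hh P f τ k z|) b) := by
      intro k
      rw [← av_sum_13, ← av_add_13]
      congr 1
      funext b
      rw [mul_add, Finset.mul_sum]
    simp only [e]
    rw [Finset.sum_add_distrib]
    have e1 : ∑ k, av μ (fun b => om P f k b * Real.sqrt (Wf b))
        = av μ (fun b => lbar P f b * Real.sqrt (Wf b)) := by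
      rw [← av_sum_13]
      congr 1
      funext b
      rw [← Finset.sum_mul, homsum]
    have e2 : ∑ k, ∑ j ∈ Finset.range J,
          av μ (fun b => om P f k b * op P (τ * j) (fun z => |hh P f τ k z|) b)
        = ∑ j ∈ Finset.range J, Rr μ P f τ (τ * j) := by
      rw [Finset.sum_comm]
      rfl
    rw [e1, e2]
  have hcs : av μ (fun b => lbar P f b * Real.sqrt (Wf b)) ≤ Real.sqrt J * τ * U μ P f := by
    have h1 := hL.av_cs (lbar P f) (fun b => Real.sqrt (Wf b))
    have hVsav : av μ Vs = (τ : ℝ) ^ 2 * U μ P f := by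
      have e0 : av μ Vs = (τ : ℝ) * ∑ i ∈ Finset.range τ, av μ (op P i (l2 P f)) := by
        rw [← av_sum_13, ← av_smul_13]
      rw [e0]
      simp only [hL.av_op]
      rw [Finset.sum_const, Finset.card_range, nsmul_eq_mul, hl2U]
      ring
    have h2' : av μ (fun b => Real.sqrt (Wf b) ^ 2) = (J : ℝ) * ((τ : ℝ) ^ 2 * U μ P f) := by
      have e0 : (fun b => Real.sqrt (Wf b) ^ 2) = Wf := by
        funext b
        exact Real.sq_sqrt (hWf0 b)
      have e1 : av μ Wf = ∑ j ∈ Finset.range J, av μ (op P (τ * j) Vs) := by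
        rw [← av_sum_13]
      rw [e0, e1]
      simp only [hL.av_op]
      rw [Finset.sum_const, Finset.card_range, nsmul_eq_mul, hVsav]
    rw [h2'] at h1
    refine h1.trans ?_
    have h3' : Real.sqrt (av μ (fun x => lbar P f x ^ 2)) ≤ Real.sqrt (U μ P f) :=
      Real.sqrt_le_sqrt hlbU
    have h4 : Real.sqrt ((J : ℝ) * ((τ : ℝ) ^ 2 * U μ P f))
        = Real.sqrt J * (τ * Real.sqrt (U μ P f)) := by
      rw [Real.sqrt_mul (Nat.cast_nonneg J), Real.sqrt_mul (by positivity),
        Real.sqrt_sq (Nat.cast_nonneg τ)]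
    rw [h4]
    have h5 : Real.sqrt (U μ P f) * Real.sqrt (U μ P f) = U μ P f := Real.mul_self_sqrt hU0
    calc Real.sqrt (av μ (fun x => lbar P f x ^ 2)) * (Real.sqrt J * (τ * Real.sqrt (U μ P f)))
        ≤ Real.sqrt (U μ P f) * (Real.sqrt J * (τ * Real.sqrt (U μ P f))) :=
          mul_le_mul_of_nonneg_right h3' (by positivity)
      _ = Real.sqrt J * τ * (Real.sqrt (U μ P f) * Real.sqrt (U μ P f)) := by ring
      _ = Real.sqrt J * τ * U μ P f := by rw [h5]
  rw [hsplit] at hQ
  linarith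

end Vale.Agent.P125.Z96
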