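import Vale.Agent.P125.Z96.Defs58
import Vale.Agent.P125.Z96.StepB_33

namespace Vale.Agent.P125.Z96

open scoped BigOperators
open Vale.Agent.P125.Dich

theorem stSqrt_33 : StSqrt := by
  intro S _ _ μ R hc _ G J c b
  obtain ⟨_, _, hR, hR1, _⟩ := hc
  have h := Z9633.stepB R hR hR1 G J b (G b - c)
  have e1 : ∀ y, |G y - (G b - c)| = |c + G y - G b| := by
    intro y; congr 1; ring
  have e2 : (G b - (G b - c)) ^ 2 = c ^ 2 := by ring
  have e3 : ∀ j, ((R ^ j).mulVec (Z9633.VV R G)) b
      = op R j (fun z => ∑ y, R z y * (G y - G z) ^ 2) b := fun j => rfl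
  have e4 : ∀ j, ((R ^ j).mulVec (Z9633.hh R G)) b
      = op R j (fun z => |∑ y, R z y * (G y - G z)|) b := by
    intro j
    have : Z9633.hh R G = fun z => |∑ y, R z y * (G y - G z)| := by
      funext z
      unfold Z9633.hh
      congr 1
      have : ∑ y, R z y * (G y - G z) = ∑ y, R z y * G y - (∑ y, R z y) * G z := by
        rw [Finset.sum_mul, ← Finset.sum_sub_distrib]
        exact Finset.sum_congr rfl fun y _ => by ring
      rw [this, hR1 z, one_mul]
      rfl
    rw [this]
    rfl
  simp_rw [e1, e2, e3, e4] at h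
  exact h

end Vale.Agent.P125.Z96
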