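import Vale.Agent.P125.Z96.Defs58

set_option linter.unusedSectionVars false
set_option linter.unusedVariables false

/-!
# P125 Poly: telescoping along the four point measure, in the shape of `Defs58`
-/

namespace Vale.Agent.P125.Z96

open scoped BigOperators
open Vale.Agent.P125.Dich

theorem stTel_1 : StTel := by
  intro S _ _ μ P hc hL g Φ hΦ t
  have pt : ∀ x y, (P ^ t) x y * |g y - g x| ≤ ∑ r ∈ Finset.range t, ∑ a, ∑ b,
      (P ^ r) x a * P a b * (P ^ (t - 1 - r)) b y * |g b - g a| := by
    intro x y
    set c : ℕ → ℝ := fun r => ∑ b, (P ^ r) x b * g b * (P ^ (t - r)) b y with hcdef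
    have hstep : ∀ r ∈ Finset.range t, c (r + 1) - c r =
        ∑ a, ∑ b, (P ^ r) x a * P a b * (P ^ (t - 1 - r)) b y * (g b - g a) := by
      intro r hr
      have hr' : r < t := Finset.mem_range.mp hr
      have e1 : t - (r + 1) = t - 1 - r := by omega
      have e2 : t - r = 1 + (t - 1 - r) := by omega
      have c1 : c (r + 1) = ∑ a, ∑ b, (P ^ r) x a * P a b * (P ^ (t - 1 - r)) b y * g b := by
        simp only [hcdef, e1]
        rw [Finset.sum_comm]
        refine Finset.sum_congr rfl fun b _ => ?_
        rw [pow_succ, Matrix.mul_apply, Finset.sum_mul, Finset.sum_mul]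
        exact Finset.sum_congr rfl fun a _ => by ring
      have c2 : c r = ∑ a, ∑ b, (P ^ r) x a * P a b * (P ^ (t - 1 - r)) b y * g a := by
        simp only [hcdef, e2]
        refine Finset.sum_congr rfl fun a _ => ?_
        rw [pow_add, pow_one, Matrix.mul_apply, Finset.mul_sum]
        exact Finset.sum_congr rfl fun b _ => by ring
      rw [c1, c2, ← Finset.sum_sub_distrib]
      refine Finset.sum_congr rfl fun a _ => ?_
      rw [← Finset.sum_sub_distrib]
      exact Finset.sum_congr rfl fun b _ => by ring
    have htel : c t - c 0 = (P ^ t) x y * (g y - g x) := by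
      simp only [hcdef, Nat.sub_self, pow_zero, Nat.sub_zero, Matrix.one_apply]
      simp
      ring
    have h0 : (P ^ t) x y * |g y - g x| = |∑ r ∈ Finset.range t, (c (r + 1) - c r)| := by
      rw [Finset.sum_range_sub, htel, abs_mul, abs_of_nonneg (hL.pw_nonneg t x y)]
    rw [h0, Finset.sum_congr rfl hstep]
    refine (Finset.abs_sum_le_sum_abs _ _).trans (Finset.sum_le_sum fun r _ => ?_)
    refine (Finset.abs_sum_le_sum_abs _ _).trans (Finset.sum_le_sum fun a _ => ?_)
    refine (Finset.abs_sum_le_sum_abs _ _).trans (Finset.sum_le_sum fun b _ => ?_)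
    rw [abs_mul, abs_of_nonneg]
    exact mul_nonneg (mul_nonneg (hL.pw_nonneg r x a) (hc.2.2.1 a b)) (hL.pw_nonneg _ b y)
  calc ∑ x, ∑ y, μ x * (P ^ t) x y * (|g y - g x| * Φ x y)
      ≤ ∑ x, ∑ y, μ x * Φ x y * ∑ r ∈ Finset.range t, ∑ a, ∑ b,
          (P ^ r) x a * P a b * (P ^ (t - 1 - r)) b y * |g b - g a| := by
        refine Finset.sum_le_sum fun x _ => Finset.sum_le_sum fun y _ => ?_
        have := mul_le_mul_of_nonneg_left (pt x y) (mul_nonneg (hL.mu_nonneg x) (hΦ x y))
        calc μ x * (P ^ t) x y * (|g y - g x| * Φ x y)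
            = μ x * Φ x y * ((P ^ t) x y * |g y - g x|) := by ring
          _ ≤ _ := this
    _ = _ := by
        simp only [Finset.mul_sum]
        conv_rhs => rw [Finset.sum_comm]
        refine Finset.sum_congr rfl fun x _ => ?_
        rw [Finset.sum_comm]
        refine Finset.sum_congr rfl fun r _ => ?_
        rw [Finset.sum_comm]
        refine Finset.sum_congr rfl fun a _ => ?_
        rw [Finset.sum_comm]
        exact Finset.sum_congr rfl fun b _ => Finset.sum_congr rfl fun y _ => by ring

end Vale.Agent.P125.Z96
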