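import Vale.Agent.P125.Z96.Lib_16
import Vale.Agent.P125.Z96.Own_33
import Vale.Agent.P125.Z96.OwnT_27
import Vale.Agent.P125.Z96.Tel_1
import Vale.Agent.P125.Z96.Col_85
import Vale.Agent.P125.Z96.Small_93
import Vale.Agent.P125.Z96.Two_77
import Vale.Agent.P125.Z96.Triv1_69
import Vale.Agent.P125.Z96.Triv2_85
import Vale.Agent.P125.Z96.Sqrt_33
import Vale.Agent.P125.Z96.Rem_92
import Vale.Agent.P125.Z96.Blk_13
import Vale.Agent.P125.Z96.Dual_51
import Vale.Agent.P125.Z96.Down_73
import Vale.Agent.P125.Z96.Back_88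
import Vale.Agent.P125.Z96.En_30
import Vale.Agent.P125.Z96.BB_38
import Vale.Agent.P125.Z96.Xi_87
import Vale.Agent.P125.Z96.R_14
import Vale.Agent.P125.Z96.Q_77
import Vale.Agent.P125.Z96.Glue_77
import Vale.Agent.P125.Z96.Wrap_75

/-!
# P125, polynomial rate: frozen private assembly (helper96)

Copies of the swarm pieces of `Poly/` (authors as in the file names), in a private
folder and namespace, composed into the core statement and the plain statement.
-/

namespace Vale.Agent.P125.Z96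

theorem stR_all : StR :=
  stR_14 stSmall_93 stDual_51 (stDown_73 (stOwnT_27 stOwn_33) stSmall_93) (stBack_88 stSmall_93)
    (stXi_87 stSmall_93 stEn_30 (stBB_38 stSmall_93))

theorem stQ_all : StQ :=
  stQ_77 stSmall_93 (stRem_92 stSmall_93 (stTriv1_69 stSmall_93))
    (stBlk_13 stLib_16 stSmall_93 (stTriv2_85 stSmall_93) stSqrt_33) stR_all

theorem stTwo_all : StTwo :=
  stTwo_77 stOwn_33 stTel_1 (stCol_85 stSmall_93) stSmall_93

theorem stCore_all : StCore :=
  stCore_77 stLib_16 stTwo_all stQ_all stSmall_93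

/-- the plain statement: polynomial rate `24 t^(11/6)` for the summing operators, uniformly in
the dimension, the chain and the function -/
theorem plain_all : ∀ t : ℕ, 1 ≤ t →
    ∀ (n : ℕ) (S : Type) [Fintype S] [DecidableEq S] (μ : S → ℝ) (P : Matrix S S ℝ),
      (∀ i, 0 ≤ μ i) → ∑ i, μ i = 1 → (∀ i j, 0 ≤ P i j) → (∀ i, ∑ j, P i j = 1) →
      (∀ i j, μ i * P i j = μ j * P j i) → ∀ f : S → Fin n → ℝ,
        ∑ i, ∑ j, μ i * (P ^ t) i j *
            (Finset.univ.sup' Finset.univ_nonempty (fun k : Fin (n + 1) =>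
              |∑ l : Fin n, if l.val < k.val then f j l - f i l else 0|)) ^ 2 ≤
          24 * (t : ℝ) ^ (11 / 6 : ℝ) *
            ∑ i, ∑ j, μ i * P i j * (∑ l : Fin n, |f j l - f i l|) ^ 2 :=
  stWrap_75 stCore_all

end Vale.Agent.P125.Z96
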