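import Vale.Agent.P125.Z96.All

set_option linter.unusedSectionVars false
set_option linter.unusedVariables false

/-!
# P125, polynomial rate in the James (quadratic variation) norm (helper96; idea of helper91)

`ψ(h) = h|h|`; `(b-a)^2 ≤ 2|ψ b - ψ a|`; `|ψ b - ψ a| ≤ 4|b-a||b| + a^2 - b^2`.  Hence the squared
quadratic variation of the running sums along any partition is at most `8 ∑_k |v_k| |G_(k+1)|`,
the own-measure quantity, which the chain of `All` bounds by `12 t^(11/6) U`.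
-/

namespace Vale.Agent.P125.Z96

open scoped BigOperators
open Vale.Agent.P125.Dich

section scalar

theorem sq_le_psi (a b : ℝ) : (b - a) ^ 2 ≤ 2 * abs (b * abs b - a * abs a) := by
  have h1 := le_abs_self (b * abs b - a * abs a)
  have h2 := neg_abs_le (b * abs b - a * abs a)
  have h3 := abs_nonneg (b * abs b - a * abs a)
  rcases abs_cases a with ⟨ea, ha⟩ | ⟨ea, ha⟩ <;> rcases abs_cases b with ⟨eb, hb⟩ | ⟨eb, hb⟩ <;>
    rw [ea, eb] at h1 h2 h3 ⊢ <;> rcases le_total a b with h | h <;>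
    nlinarith [mul_nonneg (sub_nonneg.mpr h) (sub_nonneg.mpr h), mul_self_nonneg (a + b),
      mul_self_nonneg (a - b)]

theorem psi_le (a b : ℝ) : abs (b * abs b - a * abs a) ≤ 4 * (|b - a| * |b|) + (a ^ 2 - b ^ 2) := by
  rw [abs_le]
  have h0 := abs_nonneg (b - a)
  have h1 := le_abs_self (b - a)
  have h2 := neg_abs_le (b - a)
  rcases abs_cases a with ⟨ea, ha⟩ | ⟨ea, ha⟩ <;> rcases abs_cases b with ⟨eb, hb⟩ | ⟨eb, hb⟩ <;>
    rw [ea, eb] <;> constructor <;> nlinarith [mul_self_nonneg (a + b), mul_self_nonneg (a - b)]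

theorem tv_step (φ : ℕ → ℝ) {a b : ℕ} (h : a ≤ b) :
    |φ b - φ a| ≤ ∑ k ∈ Finset.Ico a b, |φ (k + 1) - φ k| := by
  induction b, h using Nat.le_induction with
  | base => simp
  | succ b hb ih =>
    rw [Finset.sum_Ico_succ_top hb]
    have e : φ (b + 1) - φ a = (φ b - φ a) + (φ (b + 1) - φ b) := by ring
    rw [e]
    exact (abs_add_le _ _).trans (by linarith)

theorem tv_part (φ : ℕ → ℝ) (p : ℕ → ℕ) (hp : Monotone p) (m : ℕ) :
    ∑ r ∈ Finset.range m, |φ (p (r + 1)) - φ (p r)| ≤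
      ∑ k ∈ Finset.Ico (p 0) (p m), |φ (k + 1) - φ k| := by
  induction m with
  | zero => simp
  | succ m ih =>
    rw [Finset.sum_range_succ,
      ← Finset.sum_Ico_consecutive _ (hp (Nat.zero_le m)) (hp (Nat.le_succ m))]
    exact add_le_add ih (tv_step φ (hp (Nat.le_succ m)))

theorem james_nat (G : ℕ → ℝ) (hG : G 0 = 0) (p : ℕ → ℕ) (hp : Monotone p) (m N : ℕ)
    (hN : p m ≤ N) :
    ∑ r ∈ Finset.range m, (G (p (r + 1)) - G (p r)) ^ 2 ≤
      8 * ∑ k ∈ Finset.range N, |G (k + 1) - G k| * |G (k + 1)| := by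
  have a1 : ∑ r ∈ Finset.range m, (G (p (r + 1)) - G (p r)) ^ 2 ≤
      ∑ r ∈ Finset.range m, 2 * abs ((fun k => G k * abs (G k)) (p (r + 1)) - (fun k => G k * abs (G k)) (p r)) :=
    Finset.sum_le_sum fun r _ => sq_le_psi _ _
  rw [← Finset.mul_sum] at a1
  have a2 := tv_part (fun k => G k * abs (G k)) p hp m
  have a3 : ∑ k ∈ Finset.Ico (p 0) (p m),
      abs ((fun k => G k * abs (G k)) (k + 1) - (fun k => G k * abs (G k)) k) ≤
      ∑ k ∈ Finset.range N, abs ((fun k => G k * abs (G k)) (k + 1) - (fun k => G k * abs (G k)) k) := by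
    refine Finset.sum_le_sum_of_subset_of_nonneg ?_ fun _ _ _ => abs_nonneg _
    intro k hk
    rw [Finset.mem_Ico] at hk
    rw [Finset.mem_range]
    omega
  have a4 : ∑ k ∈ Finset.range N, abs ((fun k => G k * abs (G k)) (k + 1) - (fun k => G k * abs (G k)) k) ≤
      ∑ k ∈ Finset.range N, (4 * (|G (k + 1) - G k| * |G (k + 1)|) + (G k ^ 2 - G (k + 1) ^ 2)) :=
    Finset.sum_le_sum fun k _ => psi_le _ _
  rw [Finset.sum_add_distrib, ← Finset.mul_sum,
    Finset.sum_range_sub' (fun k => G k ^ 2) N, hG] at a4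
  nlinarith [sq_nonneg (G N)]

end scalar

/-- running sums of a vector, indexed by `ℕ` -/
theorem james_fin (n : ℕ) (v : Fin n → ℝ) (p : ℕ → Fin (n + 1)) (hp : Monotone p) (m : ℕ) :
    ∑ r ∈ Finset.range m,
      ((∑ l : Fin n, if l.val < (p (r + 1)).val then v l else 0) -
        (∑ l : Fin n, if l.val < (p r).val then v l else 0)) ^ 2 ≤
      8 * ∑ k : Fin n, |v k| * |∑ i, if i ≤ k then v i else 0| := by
  have h := james_nat (fun k => ∑ l : Fin n, if l.val < k then v l else 0) (by simp)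
    (fun r => (p r).val) (fun a b hab => hp hab) m n (Fin.is_le _)
  refine h.trans (le_of_eq ?_)
  rw [Finset.sum_range]
  congr 1
  refine Finset.sum_congr rfl fun k _ => ?_
  have e1 : (∑ l : Fin n, if l.val < k.val + 1 then v l else 0) =
      ∑ i, if i ≤ k then v i else 0 := by
    refine Finset.sum_congr rfl fun i _ => ?_
    have : (i.val < k.val + 1) ↔ i ≤ k := by rw [Fin.le_def]; omega
    simp only [this]
  have e2 : (∑ l : Fin n, if l.val < k.val + 1 then v l else 0) -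
      (∑ l : Fin n, if l.val < k.val then v l else 0) = v k := by
    rw [← Finset.sum_sub_distrib, Finset.sum_eq_single k]
    · simp
    · intro b _ hb
      have hb' : b.val ≠ k.val := fun h => hb (Fin.ext h)
      by_cases h1 : b.val < k.val
      · rw [if_pos h1, if_pos (by omega)]; ring
      · rw [if_neg h1, if_neg (by omega)]; ring
    · intro h; exact absurd (Finset.mem_univ k) h
  rw [e2, e1]

variable {S : Type} [Fintype S] [DecidableEq S] {n : ℕ}

/-- the own-measure quantity -/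
def OM (μ : S → ℝ) (P : Matrix S S ℝ) (f : S → Fin n → ℝ) (t : ℕ) : ℝ :=
  ∑ k, ∑ x, ∑ y, μ x * (P ^ t) x y * (|f y k - f x k| * |F f k y - F f k x|)

theorem om_two (μ : S → ℝ) (P : Matrix S S ℝ) (hc : IsChain μ P) (L : Lib μ P)
    (f : S → Fin n → ℝ) (t : ℕ) :
    OM μ P f t ≤
      t * U μ P f + ∑ r ∈ Finset.range t, (Qsum μ P f (t - 1 - r) + Qsum μ P f r) := by
  have h2 : StTel := stTel_1
  have h3 : StCol := stCol_85 stSmall_93
  have s2 : ∀ k : Fin n,
      ∑ x, ∑ y, μ x * (P ^ t) x y * (|f y k - f x k| * |F f k y - F f k x|) ≤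
      ∑ r ∈ Finset.range t, (Qk μ P f (t - 1 - r) k +
        (∑ a, ∑ b, μ a * P a b * (w f a b k * ell f a b)) + Qk μ P f r k) := by
    intro k
    refine (h2 S μ P hc L (fun x => f x k) (fun x y => |F f k y - F f k x|)
      (fun x y => abs_nonneg _) t).trans ?_
    exact Finset.sum_le_sum fun r _ => h3 S μ P hc L n f k r (t - 1 - r)
  have hUe : ∑ k, (∑ a, ∑ b, μ a * P a b * (w f a b k * ell f a b)) = U μ P f := by
    unfold U
    rw [Finset.sum_comm]
    refine Finset.sum_congr rfl fun a _ => ?_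
    rw [Finset.sum_comm]
    refine Finset.sum_congr rfl fun b _ => ?_
    rw [← Finset.mul_sum, ← Finset.sum_mul]
    have : ∑ k, w f a b k = ell f a b := rfl
    rw [this]; ring
  have s3 : ∑ k, ∑ r ∈ Finset.range t, (Qk μ P f (t - 1 - r) k +
        (∑ a, ∑ b, μ a * P a b * (w f a b k * ell f a b)) + Qk μ P f r k) =
      t * U μ P f + ∑ r ∈ Finset.range t, (Qsum μ P f (t - 1 - r) + Qsum μ P f r) := by
    rw [Finset.sum_comm]
    have : ∀ r ∈ Finset.range t, ∑ k, (Qk μ P f (t - 1 - r) k +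
        (∑ a, ∑ b, μ a * P a b * (w f a b k * ell f a b)) + Qk μ P f r k) =
        U μ P f + (Qsum μ P f (t - 1 - r) + Qsum μ P f r) := by
      intro r _
      rw [Finset.sum_add_distrib, Finset.sum_add_distrib, hUe]
      unfold Qsum
      ring
    rw [Finset.sum_congr rfl this, Finset.sum_add_distrib, Finset.sum_const, Finset.card_range,
      nsmul_eq_mul]
  have s4 := Finset.sum_le_sum (s := Finset.univ) fun k _ => s2 k
  rw [s3] at s4
  exact s4

theorem om_core (μ : S → ℝ) (P : Matrix S S ℝ) (hc : IsChain μ P)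
    (f : S → Fin n → ℝ) (t : ℕ) (ht : 1 ≤ t) :
    2 * OM μ P f t ≤ 24 * (t : ℝ) ^ (11 / 6 : ℝ) * U μ P f := by
  have L := stLib_16 S μ P hc
  have h2 := om_two μ P hc L f t
  obtain ⟨-, -, -, -, -, -, hU, -⟩ := stSmall_93 S μ P hc L n f
  obtain ⟨τ, hτ, hsc⟩ := scalar_77 t ht
  have hq := stQ_all S μ P hc L n f τ
  obtain ⟨K, hK⟩ : ∃ K : ℝ, K = Real.sqrt (t * τ) + τ + (3 / 2) * t * (τ : ℝ) ^ (-(1 / 4) : ℝ) :=
    ⟨_, rfl⟩
  have hτ0 : (0 : ℝ) ≤ (τ : ℝ) ^ (-(1 / 4) : ℝ) := Real.rpow_nonneg (by positivity) _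
  have hb : ∀ r : ℕ, r ≤ t → Qsum μ P f r ≤ K * U μ P f := by
    intro r hr
    refine (hq r hτ).trans ?_
    refine mul_le_mul_of_nonneg_right ?_ hU
    rw [hK]
    have hr' : (r : ℝ) ≤ t := by exact_mod_cast hr
    have h1 : Real.sqrt (r * τ) ≤ Real.sqrt (t * τ) :=
      Real.sqrt_le_sqrt (mul_le_mul_of_nonneg_right hr' (by positivity))
    have h3 : (3 / 2) * (r : ℝ) * (τ : ℝ) ^ (-(1 / 4) : ℝ) ≤
        (3 / 2) * (t : ℝ) * (τ : ℝ) ^ (-(1 / 4) : ℝ) :=
      mul_le_mul_of_nonneg_right (by linarith) hτ0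
    linarith
  have hsum : ∑ r ∈ Finset.range t, (Qsum μ P f (t - 1 - r) + Qsum μ P f r) ≤
      ∑ r ∈ Finset.range t, (2 * (K * U μ P f)) := by
    refine Finset.sum_le_sum fun r hr => ?_
    have hr' := Finset.mem_range.mp hr
    have := hb (t - 1 - r) (by omega)
    have := hb r (by omega)
    linarith
  rw [Finset.sum_const, Finset.card_range, nsmul_eq_mul] at hsum
  rw [← hK] at hsc
  have := mul_le_mul_of_nonneg_right hsc hU
  nlinarith [h2, hsum, this]

/-- The polynomial rate in the James (quadratic variation) norm, plain statement. -/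
theorem james_all : ∀ t : ℕ, 1 ≤ t →
    ∀ (n : ℕ) (S : Type) [Fintype S] [DecidableEq S] (μ : S → ℝ) (P : Matrix S S ℝ),
      (∀ i, 0 ≤ μ i) → ∑ i, μ i = 1 → (∀ i j, 0 ≤ P i j) → (∀ i, ∑ j, P i j = 1) →
      (∀ i j, μ i * P i j = μ j * P j i) → ∀ f : S → Fin n → ℝ,
      ∀ (m : S → S → ℕ) (p : S → S → ℕ → Fin (n + 1)), (∀ i j, Monotone (p i j)) →
        ∑ i, ∑ j, μ i * (P ^ t) i j *
            ∑ r ∈ Finset.range (m i j),
              ((∑ l : Fin n, if l.val < (p i j (r + 1)).val then f j l - f i l else 0) -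
                (∑ l : Fin n, if l.val < (p i j r).val then f j l - f i l else 0)) ^ 2 ≤
          96 * (t : ℝ) ^ (11 / 6 : ℝ) *
            ∑ i, ∑ j, μ i * P i j * (∑ l : Fin n, |f j l - f i l|) ^ 2 := by
  intro t ht n S _ _ μ P h0 h1 h2 h3 h4 f m p hp
  have hc : IsChain μ P := ⟨h0, h1, h2, h3, h4⟩
  have hct : IsChain μ (P ^ t) := isChain_pow hc t
  have key := om_core μ P hc f t ht
  have hF : ∀ (k : Fin n) (x y : S),
      (∑ i, if i ≤ k then (f y i - f x i) else 0) = F f k y - F f k x := by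
    intro k x y
    unfold F
    rw [← Finset.sum_sub_distrib]
    refine Finset.sum_congr rfl fun i _ => ?_
    split_ifs <;> simp
  have s1 : ∑ i, ∑ j, μ i * (P ^ t) i j *
            ∑ r ∈ Finset.range (m i j),
              ((∑ l : Fin n, if l.val < (p i j (r + 1)).val then f j l - f i l else 0) -
                (∑ l : Fin n, if l.val < (p i j r).val then f j l - f i l else 0)) ^ 2 ≤
      ∑ i, ∑ j, μ i * (P ^ t) i j * (8 * ∑ k : Fin n, |f j k - f i k| * |F f k j - F f k i|) := by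
    refine Finset.sum_le_sum fun i _ => Finset.sum_le_sum fun j _ => ?_
    refine mul_le_mul_of_nonneg_left ?_ (mul_nonneg (h0 i) (hct.2.2.1 i j))
    have := james_fin n (fun l => f j l - f i l) (p i j) (hp i j) (m i j)
    simp only [hF] at this
    exact this
  have e : 8 * OM μ P f t =
      ∑ i, ∑ j, μ i * (P ^ t) i j * (8 * ∑ k : Fin n, |f j k - f i k| * |F f k j - F f k i|) := by
    unfold OM
    rw [Finset.sum_comm, Finset.mul_sum]
    refine Finset.sum_congr rfl fun x _ => ?_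
    rw [Finset.sum_comm, Finset.mul_sum]
    refine Finset.sum_congr rfl fun y _ => ?_
    rw [← Finset.mul_sum]
    ring
  rw [← e] at s1
  have hU : U μ P f = ∑ i, ∑ j, μ i * P i j * (∑ l : Fin n, |f j l - f i l|) ^ 2 := rfl
  rw [← hU]
  linarith

end Vale.Agent.P125.Z96
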